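import Mathlib
import Vale.Agent.Lib.P024.Defs
import Vale.Agent.Lib.P024.Reduction

namespace Vale.Agent.Results.P024.AbsSurjReduction

open Vale.Agent.Lib.P024

universe u

/-- **Reduction of Uchida's conjecture to surjections from absolute Galois groups.**
Suppose that for all number fields `F₁`, `F₂`, every algebraic closure `Ω` of `F₁` and every
solvably closed Galois extension `E₂/F₂`, every continuous *surjective* homomorphism
`Gal(Ω/F₁) → Gal(E₂/F₂)` is induced by a field embedding `E₂ → Ω`. Then for all number fields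
`F₁`, `F₂` and all solvably closed Galois extensions `E₁/F₁`, `E₂/F₂`, every continuous
homomorphism `Gal(E₁/F₁) → Gal(E₂/F₂)` with open image is induced by a field embedding
`E₂ → E₁`. -/
theorem result
    (hyp : ∀ (F₁ Ω F₂ E₂ : Type u) [Field F₁] [NumberField F₁] [Field Ω] [Algebra F₁ Ω]
      [IsAlgClosure F₁ Ω] [Field F₂] [NumberField F₂] [Field E₂] [Algebra F₂ E₂]
      [IsGalois F₂ E₂], SolvablyClosed E₂ →
      ∀ α : Gal(Ω/F₁) →* Gal(E₂/F₂), Continuous α → Function.Surjective α →
        ∃ j : E₂ →+* Ω, Induces j α) :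
    ∀ (F₁ E₁ F₂ E₂ : Type u) [Field F₁] [NumberField F₁] [Field E₁] [Algebra F₁ E₁]
      [IsGalois F₁ E₁] [Field F₂] [NumberField F₂] [Field E₂] [Algebra F₂ E₂]
      [IsGalois F₂ E₂], SolvablyClosed E₁ → SolvablyClosed E₂ →
      ∀ α : Gal(E₁/F₁) →* Gal(E₂/F₂), Continuous α → IsOpen (Set.range α) →
        ∃ j : E₂ →+* E₁, Induces j α := by
  intro F₁ E₁ F₂ E₂ _ _ _ _ _ _ _ _ _ _ _ hS2 α hc ho
  have hchar : CharZero E₁ := charZero_of_injective_algebraMap (algebraMap F₁ E₁).injective
  let ρ : Gal((AlgebraicClosure E₁)/F₁) →* Gal(E₁/F₁) :=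
    AlgEquiv.restrictNormalHom (F := F₁) (K₁ := AlgebraicClosure E₁) E₁
  have hρc : Continuous ρ := restr_continuous
  have hρs : Function.Surjective ρ := AlgEquiv.restrictNormalHom_surjective _
  let β : Gal((AlgebraicClosure E₁)/F₁) →* Gal(E₂/F₂) := α.comp ρ
  have hβc : Continuous β := hc.comp hρc
  have hβo : IsOpen (Set.range β) := by
    have : Set.range β = Set.range α := by
      ext y
      constructor
      · rintro ⟨g, rfl⟩; exact ⟨ρ g, rfl⟩
      · rintro ⟨g, rfl⟩
        obtain ⟨g', rfl⟩ := hρs g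
        exact ⟨g', rfl⟩
    rw [this]; exact ho
  have hfin : FiniteDimensional F₂ (imgField β) := imgField_finite β hβo
  have hnf : NumberField (imgField β) := NumberField.of_module_finite F₂ (imgField β)
  obtain ⟨j, hj⟩ := hyp F₁ (AlgebraicClosure E₁) (imgField β) E₂ hS2 (corestr β)
    (corestr_continuous β hβc hβo) (corestr_surjective β hβo)
  have hj' : ∀ (g : Gal((AlgebraicClosure E₁)/F₁)) (x : E₂), g (j x) = j (α (ρ g) x) := hj
  have hrange : ∀ x : E₂, j x ∈ (algebraMap E₁ (AlgebraicClosure E₁)).fieldRange := by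
    intro x
    rw [RingHom.mem_fieldRange]
    apply (InfiniteGalois.mem_range_algebraMap_iff_fixed (k := E₁) (j x)).2
    intro h
    have hρ1 : ρ (h.restrictScalars F₁) = 1 := by
      ext y
      apply (algebraMap E₁ (AlgebraicClosure E₁)).injective
      have := AlgEquiv.restrictNormal_commutes (h.restrictScalars F₁) E₁ y
      rw [AlgEquiv.one_apply]
      refine this.trans ?_
      exact h.commutes y
    have := hj' (h.restrictScalars F₁) x
    rw [hρ1, map_one, AlgEquiv.one_apply] at this
    exact this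
  let e := (algebraMap E₁ (AlgebraicClosure E₁)).rangeRestrictFieldEquiv
  let j₁ : E₂ →+* E₁ := e.symm.toRingHom.comp (j.codRestrict _ hrange)
  have hj₁ : ∀ x, algebraMap E₁ (AlgebraicClosure E₁) (j₁ x) = j x := by
    intro x
    exact RingHom.rangeRestrictFieldEquiv_apply_symm_apply _ _
  refine ⟨j₁, ?_⟩
  intro g x
  obtain ⟨g', rfl⟩ := hρs g
  apply (algebraMap E₁ (AlgebraicClosure E₁)).injective
  rw [hj₁]
  have h1 := AlgEquiv.restrictNormal_commutes g' E₁ (j₁ x)
  refine h1.trans ?_
  rw [hj₁]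
  exact hj' g' x

end Vale.Agent.Results.P024.AbsSurjReduction
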